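import Mathlib
import Crest.Agent.Helper29.TriArea

/-!
# Shadows (orthogonal projections) of the standard regular tetrahedron — package SHADOW of row 211

`Ktet` is the regular tetrahedron with vertices `(±1,0,0)`, `(0,±1,√2)`.  For a unit vector `v`
the orthogonal projection `y ↦ y - ⟪y, v⟫ • v` maps `Ktet` onto a planar set of `μHE[2]`-area at
least `√2`, with equality for `v = (1,0,0)`.

The lemmas ending in `_of` are proved relative to the triangle area formula (hypothesis
`TriFormula`); the final section discharges it with `Crest.Agent.Helper29.euclideanHausdorff_triangle`.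
-/

set_option autoImplicit false

open MeasureTheory
open scoped ENNReal

namespace Crest.Agent.Helper15

/-- Euclidean 3-space. -/
abbrev E3 : Type := EuclideanSpace ℝ (Fin 3)

/-- Gram area of the triangle `p q r`. -/
noncomputable def triArea (p q r : E3) : ℝ :=
  Real.sqrt (‖q - p‖ ^ 2 * ‖r - p‖ ^ 2 - (inner ℝ (q - p) (r - p)) ^ 2) / 2

/-- The triangle area formula (to be supplied by the area toolkit). -/
def TriFormula : Prop :=
  ∀ p q r : E3, μHE[2] (convexHull ℝ ({p, q, r} : Set E3)) = ENNReal.ofReal (triArea p q r)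

/-- The triple product `⟪v, a × b⟫`. -/
def det3 (v a b : E3) : ℝ :=
  v 0 * (a 1 * b 2 - a 2 * b 1) - v 1 * (a 0 * b 2 - a 2 * b 0) + v 2 * (a 0 * b 1 - a 1 * b 0)

/-- Orthogonal projection along `v` (onto `v^⊥` when `‖v‖ = 1`), as a linear map. -/
noncomputable def projL (v : E3) : E3 →ₗ[ℝ] E3 :=
  LinearMap.id - (innerSL ℝ v).toLinearMap.smulRight v

theorem projL_apply (v y : E3) : projL v y = y - inner ℝ y v • v := by
  simp [projL, real_inner_comm]

theorem inner3 (x y : E3) : inner ℝ x y = x 0 * y 0 + x 1 * y 1 + x 2 * y 2 := by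
  simp [EuclideanSpace.inner_eq_star_dotProduct, dotProduct, Fin.sum_univ_three]
  ring

theorem normsq3 (x : E3) : ‖x‖ ^ 2 = x 0 ^ 2 + x 1 ^ 2 + x 2 ^ 2 := by
  rw [← real_inner_self_eq_norm_sq, inner3]; ring

theorem normsq_proj (v a : E3) (hv : ‖v‖ = 1) :
    ‖a - inner ℝ a v • v‖ ^ 2 = ‖a‖ ^ 2 - (inner ℝ a v) ^ 2 := by
  rw [norm_sub_sq_real, inner_smul_right, norm_smul, hv, Real.norm_eq_abs, mul_one, sq_abs]
  ring

theorem inner_proj (v a b : E3) (hv : ‖v‖ = 1) :
    inner ℝ (a - inner ℝ a v • v) (b - inner ℝ b v • v) =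
      inner ℝ a b - inner ℝ a v * inner ℝ b v := by
  have hvv : inner ℝ v v = 1 := by rw [real_inner_self_eq_norm_sq, hv]; norm_num
  rw [inner_sub_left, inner_sub_right, inner_sub_right, inner_smul_left, inner_smul_left,
    inner_smul_right, inner_smul_right, hvv, real_inner_comm v b]
  simp only [RCLike.conj_to_real]
  ring

/-- Gram area of a projected triangle. -/
theorem triArea_proj (v p q r : E3) (hv : ‖v‖ = 1) :
    triArea (projL v p) (projL v q) (projL v r) = |det3 v (q - p) (r - p)| / 2 := by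
  have hv2 : v 0 ^ 2 + v 1 ^ 2 + v 2 ^ 2 = 1 := by rw [← normsq3, hv]; norm_num
  unfold triArea
  congr 1
  rw [← map_sub, ← map_sub, ← Real.sqrt_sq_eq_abs]
  congr 1
  generalize q - p = a
  generalize r - p = b
  rw [projL_apply, projL_apply, normsq_proj v a hv, normsq_proj v b hv, inner_proj v a b hv,
    normsq3, normsq3, inner3 a b, inner3 a v, inner3 b v]
  unfold det3
  linear_combination (-(a 0 * b 1 - a 1 * b 0) ^ 2 - (a 0 * b 2 - a 2 * b 0) ^ 2 - (a 1 * b 2 - a 2 * b 1) ^ 2) * hv2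

/-! ### Linearity of `det3` in the last argument -/

theorem det3_add (v w x y : E3) : det3 v w (x + y) = det3 v w x + det3 v w y := by
  simp only [det3, PiLp.add_apply]; ring

theorem det3_sub (v w x y : E3) : det3 v w (x - y) = det3 v w x - det3 v w y := by
  simp only [det3, PiLp.sub_apply]; ring

theorem det3_smul (v w x : E3) (c : ℝ) : det3 v w (c • x) = c * det3 v w x := by
  simp only [det3, PiLp.smul_apply, smul_eq_mul]; ring

theorem det3_self_right (v w : E3) : det3 v w w = 0 := by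
  simp only [det3]; ring

theorem det3_self_left (v w : E3) : det3 v w v = 0 := by
  simp only [det3]; ring

theorem det3_proj (v w x : E3) : det3 v w (projL v x) = det3 v w x := by
  rw [projL_apply, det3_sub, det3_smul, det3_self_left]; ring

/-! ### Area lower bounds for a convex set containing projected points -/

theorem measurableSet_tri (p q r : E3) : MeasurableSet (convexHull ℝ ({p, q, r} : Set E3)) :=
  (Set.Finite.isClosed_convexHull ℝ (Set.toFinite ({p, q, r} : Set E3))).measurableSet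

/-- A convex set containing three projected points has area at least that of the projected
triangle. -/
theorem face_bound (htri : TriFormula) (v : E3) (hv : ‖v‖ = 1) (A B C : E3) (W : Set E3)
    (hW : Convex ℝ W) (hA : projL v A ∈ W) (hB : projL v B ∈ W) (hC : projL v C ∈ W) :
    ENNReal.ofReal (|det3 v (B - A) (C - A)| / 2) ≤ μHE[2] W := by
  rw [← triArea_proj v A B C hv, ← htri]
  refine measure_mono (convexHull_min ?_ hW)
  intro x hx
  rcases hx with rfl | rfl | rfl <;> assumption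

/-- Points of the triangle `p q r` are `a • p + b • y` with `y` on the segment `q r`. -/
theorem mem_tri (p q r x : E3) (hx : x ∈ convexHull ℝ ({p, q, r} : Set E3)) :
    ∃ a b c : ℝ, 0 ≤ a ∧ 0 ≤ b ∧ 0 ≤ c ∧ a + b + c = 1 ∧ x = a • p + b • q + c • r := by
  rw [convexHull_insert (by simp), convexHull_pair] at hx
  rw [mem_convexJoin] at hx
  obtain ⟨p', hp', y, hy, hx⟩ := hx
  rw [Set.mem_singleton_iff] at hp'
  subst hp'
  obtain ⟨a, b, ha, hb, hab, rfl⟩ := hx
  obtain ⟨c, d, hc, hd, hcd, rfl⟩ := hy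
  refine ⟨a, b * c, b * d, ha, mul_nonneg hb hc, mul_nonneg hb hd, ?_, ?_⟩
  · calc a + b * c + b * d = a + b * (c + d) := by ring
      _ = 1 := by rw [hcd, mul_one, hab]
  · rw [smul_add, smul_smul, smul_smul, add_assoc]

theorem triArea_degenerate (p q : E3) : triArea p q q = 0 := by
  unfold triArea
  rw [real_inner_self_eq_norm_sq]
  have : ‖q - p‖ ^ 2 * ‖q - p‖ ^ 2 - (‖q - p‖ ^ 2) ^ 2 = 0 := by ring
  rw [this]; simp

theorem abs_sub_le_of_same_sign (x y : ℝ) (h : 0 ≤ x * y) (hxy : |x| ≤ |y|) : |y - x| ≤ |y| := by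
  rcases abs_cases x with ⟨h1', h2'⟩ | ⟨h1', h2'⟩ <;>
  rcases abs_cases y with ⟨h3', h4'⟩ | ⟨h3', h4'⟩ <;>
  rcases abs_cases (y - x) with ⟨h5', h6'⟩ | ⟨h5', h6'⟩ <;> nlinarith

theorem abs_sub_le_of_same_sign' (x y : ℝ) (h : 0 ≤ x * y) (hxy : |y| ≤ |x|) : |y - x| ≤ |x| := by
  rcases abs_cases x with ⟨h1', h2'⟩ | ⟨h1', h2'⟩ <;>
  rcases abs_cases y with ⟨h3', h4'⟩ | ⟨h3', h4'⟩ <;>
  rcases abs_cases (y - x) with ⟨h5', h6'⟩ | ⟨h5', h6'⟩ <;> nlinarith

theorem abs_sub_eq_of_opp_sign (x y : ℝ) (h : x * y < 0) : |y - x| = |x| + |y| := by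
  rcases abs_cases x with ⟨h1', h2'⟩ | ⟨h1', h2'⟩ <;>
  rcases abs_cases y with ⟨h3', h4'⟩ | ⟨h3', h4'⟩ <;>
  rcases abs_cases (y - x) with ⟨h5', h6'⟩ | ⟨h5', h6'⟩ <;> nlinarith

/-- Two projected triangles on a common edge: a convex set containing four projected points has
area at least `|⟪v, (B - A) × (D - C)⟫| / 2`. -/
theorem edge_bound (htri : TriFormula) (v : E3) (hv : ‖v‖ = 1) (A B C D : E3) (W : Set E3)
    (hW : Convex ℝ W) (hA : projL v A ∈ W) (hB : projL v B ∈ W) (hC : projL v C ∈ W)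
    (hD : projL v D ∈ W) :
    ENNReal.ofReal (|det3 v (B - A) (D - C)| / 2) ≤ μHE[2] W := by
  have hCD : det3 v (B - A) (D - C) = det3 v (B - A) (D - A) - det3 v (B - A) (C - A) := by
    rw [← det3_sub]; congr 1; abel
  have h1 := face_bound htri v hv A B C W hW hA hB hC
  have h2 := face_bound htri v hv A B D W hW hA hB hD
  have hμ1 := htri (projL v A) (projL v B) (projL v C)
  have hμ2 := htri (projL v A) (projL v B) (projL v D)
  rw [triArea_proj v A B C hv] at hμ1
  rw [triArea_proj v A B D hv] at hμ2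
  have hfA : det3 v (B - A) (projL v A) = det3 v (B - A) A := det3_proj _ _ _
  have hfB : det3 v (B - A) (projL v B) = det3 v (B - A) A := by
    rw [det3_proj]
    have : det3 v (B - A) B - det3 v (B - A) A = 0 := by
      rw [← det3_sub, det3_self_right]
    linarith
  have hfC : det3 v (B - A) (projL v C) = det3 v (B - A) A + det3 v (B - A) (C - A) := by
    rw [det3_proj, det3_sub]; ring
  have hfD : det3 v (B - A) (projL v D) = det3 v (B - A) A + det3 v (B - A) (D - A) := by
    rw [det3_proj, det3_sub]; ring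
  rw [hCD]
  generalize det3 v (B - A) (C - A) = sC at *
  generalize det3 v (B - A) (D - A) = sD at *
  generalize det3 v (B - A) A = h0 at *
  by_cases hsign : 0 ≤ sC * sD
  · -- same side: the larger triangle suffices
    rcases le_total |sC| |sD| with hle | hle
    · refine le_trans (ENNReal.ofReal_le_ofReal ?_) h2
      have := abs_sub_le_of_same_sign sC sD hsign hle
      linarith
    · refine le_trans (ENNReal.ofReal_le_ofReal ?_) h1
      have := abs_sub_le_of_same_sign' sC sD hsign hle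
      linarith
  · -- opposite sides: the two triangles overlap in a null set
    rw [not_le] at hsign
    have hsC0 : sC ≠ 0 := by rintro h; rw [h] at hsign; simp at hsign
    have hT1W : convexHull ℝ ({projL v A, projL v B, projL v C} : Set E3) ⊆ W :=
      convexHull_min (by intro x hx; rcases hx with rfl | rfl | rfl <;> assumption) hW
    have hT2W : convexHull ℝ ({projL v A, projL v B, projL v D} : Set E3) ⊆ W :=
      convexHull_min (by intro x hx; rcases hx with rfl | rfl | rfl <;> assumption) hW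
    have hinter : convexHull ℝ ({projL v A, projL v B, projL v C} : Set E3) ∩
        convexHull ℝ ({projL v A, projL v B, projL v D} : Set E3) ⊆
        convexHull ℝ ({projL v A, projL v B, projL v B} : Set E3) := by
      rintro x ⟨hx1, hx2⟩
      obtain ⟨a, b, c, ha, hb, hc, habc, hx⟩ := mem_tri _ _ _ x hx1
      obtain ⟨a', b', c', ha', hb', hc', habc', hx'⟩ := mem_tri _ _ _ x hx2
      have e1 : det3 v (B - A) x = h0 + c * sC := by
        rw [hx, det3_add, det3_add, det3_smul, det3_smul, det3_smul, hfA, hfB, hfC]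
        linear_combination h0 * habc
      have e2 : det3 v (B - A) x = h0 + c' * sD := by
        rw [hx', det3_add, det3_add, det3_smul, det3_smul, det3_smul, hfA, hfB, hfD]
        linear_combination h0 * habc'
      have hc0 : c = 0 := by
        have h3 : c * sC = c' * sD := by linarith
        have h4 : (c * sC) ^ 2 = c * c' * (sC * sD) := by
          have h4' : (c * sC) ^ 2 = (c * sC) * (c' * sD) := by rw [← h3]; ring
          rw [h4']; ring
        have h5 : c * c' * (sC * sD) ≤ 0 :=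
          mul_nonpos_of_nonneg_of_nonpos (mul_nonneg hc hc') hsign.le
        have h6 : c * sC = 0 := by nlinarith [sq_nonneg (c * sC)]
        rcases mul_eq_zero.mp h6 with h | h
        · exact h
        · exact absurd h hsC0
      subst hc0
      rw [hx]
      have hseg : a • projL v A + b • projL v B ∈ segment ℝ (projL v A) (projL v B) :=
        ⟨a, b, ha, hb, by linarith, rfl⟩
      have hset : ({projL v A, projL v B, projL v B} : Set E3) = {projL v A, projL v B} := by simp
      rw [hset, convexHull_pair]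
      simpa using hseg
    have hnull : μHE[2] (convexHull ℝ ({projL v A, projL v B, projL v C} : Set E3) ∩
        convexHull ℝ ({projL v A, projL v B, projL v D} : Set E3)) = 0 := by
      refine measure_mono_null hinter ?_
      rw [htri, triArea_degenerate]; simp
    have hunion := measure_union_add_inter (μ := (μHE[2] : Measure E3))
      (convexHull ℝ ({projL v A, projL v B, projL v C} : Set E3))
      (measurableSet_tri (projL v A) (projL v B) (projL v D))
    rw [hnull, add_zero, hμ1, hμ2] at hunion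
    rw [abs_sub_eq_of_opp_sign sC sD hsign, add_div,
      ENNReal.ofReal_add (by positivity) (by positivity), ← hunion]
    exact measure_mono (Set.union_subset hT1W hT2W)

/-! ### The standard tetrahedron -/

/-- The regular tetrahedron with vertices `(±1,0,0)`, `(0,±1,√2)`. -/
noncomputable def Ktet : Set E3 :=
  convexHull ℝ {!₂[1, 0, 0], !₂[-1, 0, 0], !₂[0, 1, Real.sqrt 2], !₂[0, -1, Real.sqrt 2]}

noncomputable def vA : E3 := !₂[1, 0, 0]
noncomputable def vB : E3 := !₂[-1, 0, 0]
noncomputable def vC : E3 := !₂[0, 1, Real.sqrt 2]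
noncomputable def vD : E3 := !₂[0, -1, Real.sqrt 2]

theorem Ktet_eq : Ktet = convexHull ℝ {vA, vB, vC, vD} := rfl

theorem image_Ktet (v : E3) :
    (fun y : E3 => y - inner ℝ y v • v) '' Ktet =
      convexHull ℝ {projL v vA, projL v vB, projL v vC, projL v vD} := by
  have h : (fun y : E3 => y - inner ℝ y v • v) = ⇑(projL v) := by
    funext y; rw [projL_apply]
  rw [h, Ktet_eq, LinearMap.image_convexHull]
  congr 1
  simp [Set.image_insert_eq]

theorem det_AB_CD (v : E3) : det3 v (vB - vA) (vD - vC) = 4 * v 2 := by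
  simp [det3, vA, vB, vC, vD]; ring

theorem det_AC_BD (v : E3) : det3 v (vC - vA) (vD - vB) = 2 * Real.sqrt 2 * (v 0 + v 1) := by
  simp [det3, vA, vB, vC, vD]; ring

theorem det_AD_BC (v : E3) : det3 v (vD - vA) (vC - vB) = 2 * Real.sqrt 2 * (v 1 - v 0) := by
  simp [det3, vA, vB, vC, vD]; ring

theorem det_ABC (v : E3) : det3 v (vB - vA) (vC - vA) = 2 * (Real.sqrt 2 * v 1 - v 2) := by
  simp [det3, vA, vB, vC, vD]; ring

theorem det_ABD (v : E3) : det3 v (vB - vA) (vD - vA) = 2 * (Real.sqrt 2 * v 1 + v 2) := by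
  simp [det3, vA, vB, vC, vD]; ring

theorem det_ACD (v : E3) : det3 v (vC - vA) (vD - vA) = 2 * (Real.sqrt 2 * v 0 + v 2) := by
  simp [det3, vA, vB, vC, vD]; ring

theorem det_BCD (v : E3) : det3 v (vC - vB) (vD - vB) = 2 * (Real.sqrt 2 * v 0 - v 2) := by
  simp [det3, vA, vB, vC, vD]; ring

theorem tri_real (a b c s : ℝ) (ha0 : 0 ≤ a) (hb0 : 0 ≤ b) (hc0 : 0 ≤ c) (hs0 : 0 < s)
    (hs2 : s * s = 2) (hab : a + b < 1) (hbc : s * b + c < s) (hac : s * a + c < s)
    (h1 : 2 * c < s) : a ^ 2 + b ^ 2 + c ^ 2 < 1 := by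
  have hc1 : c < s * (1 - a) := by linarith
  have hc2 : c < s * (1 - b) := by linarith
  have hcs : c ^ 2 < 2 * (1 - a) ^ 2 := by
    have h := pow_lt_pow_left₀ hc1 hc0 (two_ne_zero)
    calc c ^ 2 < (s * (1 - a)) ^ 2 := h
      _ = (s * s) * (1 - a) ^ 2 := by ring
      _ = 2 * (1 - a) ^ 2 := by rw [hs2]
  have hcs' : c ^ 2 < 2 * (1 - b) ^ 2 := by
    have h := pow_lt_pow_left₀ hc2 hc0 (two_ne_zero)
    calc c ^ 2 < (s * (1 - b)) ^ 2 := h
      _ = (s * s) * (1 - b) ^ 2 := by ring
      _ = 2 * (1 - b) ^ 2 := by rw [hs2]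
  have hch : c ^ 2 < 1 / 2 := by
    have h := pow_lt_pow_left₀ h1 (by linarith : (0:ℝ) ≤ 2 * c) (two_ne_zero)
    have h' : (2 * c) ^ 2 < 2 := by
      calc (2 * c) ^ 2 < s ^ 2 := h
        _ = s * s := by ring
        _ = 2 := hs2
    linarith [show (2 * c) ^ 2 = 4 * c ^ 2 by ring]
  rcases le_or_gt (1 / 2) a with hA | hA
  · have hb2 : b ^ 2 < (1 - a) ^ 2 :=
      pow_lt_pow_left₀ (by linarith : b < 1 - a) hb0 (two_ne_zero)
    have hprod : 0 ≤ (2 * a - 1) * (1 - a) := mul_nonneg (by linarith) (by linarith)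
    linarith [show (2 * a - 1) * (1 - a) = -2 * a ^ 2 + 3 * a - 1 by ring,
      show (1 - a) ^ 2 = a ^ 2 - 2 * a + 1 by ring]
  · rcases le_or_gt (1 / 2) b with hB | hB
    · have ha2 : a ^ 2 < (1 - b) ^ 2 :=
        pow_lt_pow_left₀ (by linarith : a < 1 - b) ha0 (two_ne_zero)
      have hprod : 0 ≤ (2 * b - 1) * (1 - b) := mul_nonneg (by linarith) (by linarith)
      linarith [show (2 * b - 1) * (1 - b) = -2 * b ^ 2 + 3 * b - 1 by ring,
        show (1 - b) ^ 2 = b ^ 2 - 2 * b + 1 by ring]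
    · have ha2 : a ^ 2 < (1 / 2) ^ 2 := pow_lt_pow_left₀ hA ha0 (two_ne_zero)
      have hb2 : b ^ 2 < (1 / 2) ^ 2 := pow_lt_pow_left₀ hB hb0 (two_ne_zero)
      norm_num at ha2 hb2
      linarith

/-- The elementary inequality behind the minimal shadow: on the unit sphere one of the seven
face / opposite-edge-pair bounds is at least `√2`. -/
theorem key_ineq (x y z : ℝ) (h : x ^ 2 + y ^ 2 + z ^ 2 = 1) :
    Real.sqrt 2 ≤ |4 * z| / 2 ∨ Real.sqrt 2 ≤ |2 * Real.sqrt 2 * (x + y)| / 2 ∨
    Real.sqrt 2 ≤ |2 * Real.sqrt 2 * (y - x)| / 2 ∨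
    Real.sqrt 2 ≤ |2 * (Real.sqrt 2 * y - z)| / 2 ∨ Real.sqrt 2 ≤ |2 * (Real.sqrt 2 * y + z)| / 2 ∨
    Real.sqrt 2 ≤ |2 * (Real.sqrt 2 * x + z)| / 2 ∨ Real.sqrt 2 ≤ |2 * (Real.sqrt 2 * x - z)| / 2 := by
  by_contra hcon
  simp only [not_or, not_le] at hcon
  obtain ⟨h1, h2, h3, h4, h5, h6, h7⟩ := hcon
  have hs0 : 0 < Real.sqrt 2 := Real.sqrt_pos.mpr (by norm_num)
  have hs2 : Real.sqrt 2 * Real.sqrt 2 = 2 := Real.mul_self_sqrt (by norm_num)
  generalize Real.sqrt 2 = s at *
  rw [abs_mul, abs_of_pos (by norm_num : (0:ℝ) < 4)] at h1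
  rw [abs_mul, abs_mul, abs_of_pos (by norm_num : (0:ℝ) < 2), abs_of_pos hs0] at h2 h3
  rw [abs_mul, abs_of_pos (by norm_num : (0:ℝ) < 2)] at h4 h5 h6 h7
  have h2' : |x + y| < 1 := by
    have : s * |x + y| < s * 1 := by linarith
    exact lt_of_mul_lt_mul_left this hs0.le
  have h3' : |y - x| < 1 := by
    have : s * |y - x| < s * 1 := by linarith
    exact lt_of_mul_lt_mul_left this hs0.le
  have h4' : |s * y - z| < s := by linarith
  have h5' : |s * y + z| < s := by linarith
  have h6' : |s * x + z| < s := by linarith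
  have h7' : |s * x - z| < s := by linarith
  have h1' : 2 * |z| < s := by linarith
  rw [abs_lt] at h2' h3' h4' h5' h6' h7'
  have hab : |x| + |y| < 1 := by
    rcases abs_cases x with ⟨e1, _⟩ | ⟨e1, _⟩ <;> rcases abs_cases y with ⟨e2, _⟩ | ⟨e2, _⟩ <;>
      rw [e1, e2] <;> linarith [h2'.1, h2'.2, h3'.1, h3'.2]
  have hbc : s * |y| + |z| < s := by
    rcases abs_cases y with ⟨e1, _⟩ | ⟨e1, _⟩ <;> rcases abs_cases z with ⟨e2, _⟩ | ⟨e2, _⟩ <;>
      rw [e1, e2] <;> linarith [h4'.1, h4'.2, h5'.1, h5'.2]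
  have hac : s * |x| + |z| < s := by
    rcases abs_cases x with ⟨e1, _⟩ | ⟨e1, _⟩ <;> rcases abs_cases z with ⟨e2, _⟩ | ⟨e2, _⟩ <;>
      rw [e1, e2] <;> linarith [h6'.1, h6'.2, h7'.1, h7'.2]
  have key := tri_real |x| |y| |z| s (abs_nonneg x) (abs_nonneg y) (abs_nonneg z) hs0 hs2 hab hbc hac h1'
  rw [sq_abs, sq_abs, sq_abs] at key
  linarith

theorem convex_shadow (v : E3) : Convex ℝ ((fun y : E3 => y - inner ℝ y v • v) '' Ktet) := by
  rw [image_Ktet]; exact convex_convexHull ℝ _

theorem proj_mem_shadow (v : E3) (x : E3) (hx : x ∈ ({vA, vB, vC, vD} : Set E3)) :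
    projL v x ∈ (fun y : E3 => y - inner ℝ y v • v) '' Ktet := by
  refine ⟨x, subset_convexHull ℝ _ hx, ?_⟩
  simp only [projL_apply]

/-- **Minimal shadow, lower bound**: every orthogonal projection of the tetrahedron has area
at least `√2`. -/
theorem shadow_ge_of (htri : TriFormula) (v : E3) (hv : ‖v‖ = 1) :
    ENNReal.ofReal (Real.sqrt 2) ≤ μHE[2] ((fun y : E3 => y - inner ℝ y v • v) '' Ktet) := by
  have hW := convex_shadow v
  have hA := proj_mem_shadow v vA (by simp)
  have hB := proj_mem_shadow v vB (by simp)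
  have hC := proj_mem_shadow v vC (by simp)
  have hD := proj_mem_shadow v vD (by simp)
  have hv2 : v 0 ^ 2 + v 1 ^ 2 + v 2 ^ 2 = 1 := by rw [← normsq3, hv]; norm_num
  have b1 := edge_bound htri v hv vA vB vC vD _ hW hA hB hC hD
  have b2 := edge_bound htri v hv vA vC vB vD _ hW hA hC hB hD
  have b3 := edge_bound htri v hv vA vD vB vC _ hW hA hD hB hC
  have b4 := face_bound htri v hv vA vB vC _ hW hA hB hC
  have b5 := face_bound htri v hv vA vB vD _ hW hA hB hD
  have b6 := face_bound htri v hv vA vC vD _ hW hA hC hD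
  have b7 := face_bound htri v hv vB vC vD _ hW hB hC hD
  rw [det_AB_CD] at b1
  rw [det_AC_BD] at b2
  rw [det_AD_BC] at b3
  rw [det_ABC] at b4
  rw [det_ABD] at b5
  rw [det_ACD] at b6
  rw [det_BCD] at b7
  rcases key_ineq (v 0) (v 1) (v 2) hv2 with h | h | h | h | h | h | h
  · exact le_trans (ENNReal.ofReal_le_ofReal h) b1
  · exact le_trans (ENNReal.ofReal_le_ofReal h) b2
  · exact le_trans (ENNReal.ofReal_le_ofReal h) b3
  · exact le_trans (ENNReal.ofReal_le_ofReal h) b4
  · exact le_trans (ENNReal.ofReal_le_ofReal h) b5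
  · exact le_trans (ENNReal.ofReal_le_ofReal h) b6
  · exact le_trans (ENNReal.ofReal_le_ofReal h) b7

/-! ### Finiteness of the shadow area -/

theorem isCompact_Ktet : IsCompact Ktet :=
  Set.Finite.isCompact_convexHull ℝ (Set.toFinite _)

/-- The area of a shadow is finite (the shadow is a bounded subset of the plane `v^⊥`). -/
theorem shadow_ne_top (v : E3) (hv : ‖v‖ = 1) :
    μHE[2] ((fun y : E3 => y - inner ℝ y v • v) '' Ktet) ≠ ⊤ := by
  have hv0 : v ≠ 0 := by rintro rfl; simp at hv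
  set W : Set E3 := (fun y : E3 => y - inner ℝ y v • v) '' Ktet with hWdef
  set S : Submodule ℝ E3 := (ℝ ∙ v)ᗮ with hS
  have hfin : Module.finrank ℝ S = 2 :=
    Submodule.finrank_orthogonal_span_singleton (𝕜 := ℝ) (E := E3) (n := 2)
      (_i := ⟨by simp⟩) hv0
  have hWS : W ⊆ (S : Set E3) := by
    rintro _ ⟨y, -, rfl⟩
    rw [SetLike.mem_coe, hS, Submodule.mem_orthogonal_singleton_iff_inner_right]
    rw [inner_sub_right, inner_smul_right, real_inner_self_eq_norm_sq, hv, real_inner_comm]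
    ring
  have hWcomp : IsCompact W := by
    refine isCompact_Ktet.image ?_
    fun_prop
  have hWeq : W = Subtype.val '' ((Subtype.val : S → E3) ⁻¹' W) := by
    ext x
    constructor
    · intro hx
      exact ⟨⟨x, hWS hx⟩, hx, rfl⟩
    · rintro ⟨y, hy, rfl⟩
      exact hy
  have hiso : μHE[2] ((Subtype.val : S → E3) '' ((Subtype.val : S → E3) ⁻¹' W)) =
      μHE[2] ((Subtype.val : S → E3) ⁻¹' W) :=
    (isometry_subtype_coe : Isometry (Subtype.val : S → E3)).euclideanHausdorffMeasure_image _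
  rw [hWeq, hiso]
  have hvol : (μHE[2] : Measure S) = volume := by
    have h := InnerProductSpace.euclideanHausdorffMeasure_eq_volume (V := S)
    rwa [hfin] at h
  rw [hvol]
  have hbdd : Bornology.IsBounded ((Subtype.val : S → E3) ⁻¹' W) := by
    obtain ⟨R, hR⟩ := hWcomp.isBounded.subset_closedBall (0 : E3)
    refine (Metric.isBounded_closedBall (x := (0 : S)) (r := R)).subset ?_
    intro x hx
    have := hR hx
    simpa [mem_closedBall_zero_iff] using this
  exact hbdd.measure_lt_top.ne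

/-! ### The equality case and the final statements -/

theorem norm_vA : ‖vA‖ = 1 := by
  have h : ‖vA‖ ^ 2 = 1 := by rw [normsq3]; simp [vA]
  have h0 : 0 ≤ ‖vA‖ := norm_nonneg _
  nlinarith

theorem proj_vA_vA : projL vA vA = 0 := by
  rw [projL_apply, real_inner_self_eq_norm_sq, norm_vA]; simp

theorem proj_vA_vB : projL vA vB = 0 := by
  rw [projL_apply]
  have h1 : inner ℝ vB vA = -1 := by rw [inner3]; simp [vA, vB]
  have h2 : vB = -vA := by
    ext i; fin_cases i <;> simp [vA, vB]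
  rw [h1, h2]; simp

theorem proj_vA_vC : projL vA vC = vC := by
  rw [projL_apply]
  have h1 : inner ℝ vC vA = 0 := by rw [inner3]; simp [vA, vC]
  rw [h1]; simp

theorem proj_vA_vD : projL vA vD = vD := by
  rw [projL_apply]
  have h1 : inner ℝ vD vA = 0 := by rw [inner3]; simp [vA, vD]
  rw [h1]; simp

theorem triArea_zero_vC_vD : triArea 0 vC vD = Real.sqrt 2 := by
  unfold triArea
  rw [sub_zero, sub_zero, normsq3, normsq3, inner3]
  have e : (vC 0 ^ 2 + vC 1 ^ 2 + vC 2 ^ 2) * (vD 0 ^ 2 + vD 1 ^ 2 + vD 2 ^ 2) -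
      (vC 0 * vD 0 + vC 1 * vD 1 + vC 2 * vD 2) ^ 2 = 2 ^ 2 * 2 := by
    simp [vC, vD]
    norm_num
  rw [e, Real.sqrt_mul (by norm_num), Real.sqrt_sq (by norm_num)]
  ring

/-- **Minimal shadow, equality case**: projecting along the edge direction `(1,0,0)` gives a
triangle of area `√2`. -/
theorem shadow_eq_of (htri : TriFormula) :
    ∃ v : E3, ‖v‖ = 1 ∧
      μHE[2] ((fun y : E3 => y - inner ℝ y v • v) '' Ktet) = ENNReal.ofReal (Real.sqrt 2) := by
  refine ⟨vA, norm_vA, ?_⟩
  rw [image_Ktet, proj_vA_vA, proj_vA_vB, proj_vA_vC, proj_vA_vD]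
  have hset : ({0, 0, vC, vD} : Set E3) = {0, vC, vD} := by simp
  rw [hset, htri, triArea_zero_vC_vD]

theorem shadow_toReal_ge_of (htri : TriFormula) (v : E3) (hv : ‖v‖ = 1) :
    Real.sqrt 2 ≤ (μHE[2] ((fun y : E3 => y - inner ℝ y v • v) '' Ktet)).toReal :=
  (ENNReal.ofReal_le_iff_le_toReal (shadow_ne_top v hv)).mp (shadow_ge_of htri v hv)

/-- S0325, part (1), verbatim (relative to the triangle area formula). -/
theorem s0325_part1_of (htri : TriFormula) :
    (∀ v : EuclideanSpace ℝ (Fin 3), ‖v‖ = 1 →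
        ENNReal.ofReal (Real.sqrt 2) ≤ μHE[2] ((fun y => y - inner ℝ y v • v) '' convexHull ℝ {!₂[1, 0, 0], !₂[-1, 0, 0], !₂[0, 1, Real.sqrt 2], !₂[0, -1, Real.sqrt 2]})) ∧
      ∃ v : EuclideanSpace ℝ (Fin 3), ‖v‖ = 1 ∧
        μHE[2] ((fun y => y - inner ℝ y v • v) '' convexHull ℝ {!₂[1, 0, 0], !₂[-1, 0, 0], !₂[0, 1, Real.sqrt 2], !₂[0, -1, Real.sqrt 2]}) = ENNReal.ofReal (Real.sqrt 2) :=
  ⟨fun v hv => shadow_ge_of htri v hv, shadow_eq_of htri⟩

/-! ### Unconditional versions (triangle formula from `Crest.Agent.Helper29.TriArea`) -/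

theorem triArea_eq (p q r : E3) : triArea p q r = Crest.Agent.Helper29.triArea p q r := rfl

theorem triFormula : TriFormula := fun p q r =>
  Crest.Agent.Helper29.euclideanHausdorff_triangle p q r

/-- Every orthogonal projection of the tetrahedron `Ktet` onto a plane has area at least `√2`. -/
theorem shadow_ge (v : E3) (hv : ‖v‖ = 1) :
    ENNReal.ofReal (Real.sqrt 2) ≤ μHE[2] ((fun y : E3 => y - inner ℝ y v • v) '' Ktet) :=
  shadow_ge_of triFormula v hv

/-- The minimal shadow area `√2` is attained. -/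
theorem shadow_eq :
    ∃ v : E3, ‖v‖ = 1 ∧
      μHE[2] ((fun y : E3 => y - inner ℝ y v • v) '' Ktet) = ENNReal.ofReal (Real.sqrt 2) :=
  shadow_eq_of triFormula

/-- The form consumed by S0324 / S0327: a real lower bound for the shadow area. -/
theorem shadow_toReal_ge (v : E3) (hv : ‖v‖ = 1) :
    Real.sqrt 2 ≤ (μHE[2] ((fun y : E3 => y - inner ℝ y v • v) '' Ktet)).toReal :=
  shadow_toReal_ge_of triFormula v hv

/-- The same with the tetrahedron written out as in the statements. -/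
theorem shadow_toReal_ge' (v : EuclideanSpace ℝ (Fin 3)) (hv : ‖v‖ = 1) :
    Real.sqrt 2 ≤ (μHE[2] ((fun y => y - inner ℝ y v • v) '' convexHull ℝ
      {!₂[1, 0, 0], !₂[-1, 0, 0], !₂[0, 1, Real.sqrt 2], !₂[0, -1, Real.sqrt 2]})).toReal :=
  shadow_toReal_ge v hv

theorem shadow_ne_top' (v : EuclideanSpace ℝ (Fin 3)) (hv : ‖v‖ = 1) :
    μHE[2] ((fun y => y - inner ℝ y v • v) '' convexHull ℝ
      {!₂[1, 0, 0], !₂[-1, 0, 0], !₂[0, 1, Real.sqrt 2], !₂[0, -1, Real.sqrt 2]}) ≠ ⊤ :=
  shadow_ne_top v hv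

/-- **S0325, part (1), verbatim.** -/
theorem s0325_part1 :
    (∀ v : EuclideanSpace ℝ (Fin 3), ‖v‖ = 1 →
        ENNReal.ofReal (Real.sqrt 2) ≤ μHE[2] ((fun y => y - inner ℝ y v • v) '' convexHull ℝ {!₂[1, 0, 0], !₂[-1, 0, 0], !₂[0, 1, Real.sqrt 2], !₂[0, -1, Real.sqrt 2]})) ∧
      ∃ v : EuclideanSpace ℝ (Fin 3), ‖v‖ = 1 ∧
        μHE[2] ((fun y => y - inner ℝ y v • v) '' convexHull ℝ {!₂[1, 0, 0], !₂[-1, 0, 0], !₂[0, 1, Real.sqrt 2], !₂[0, -1, Real.sqrt 2]}) = ENNReal.ofReal (Real.sqrt 2) :=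
  s0325_part1_of triFormula

end Crest.Agent.Helper15
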